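import Vale.Agent.P088.R2.H354.E.Cut

/-!
# P088, stage 3, zone T: from the flat slots to the given ones, letters

`zone_le`: margins and costs may be changed together. `tube_pert`: transfer of a flat zone
inequality with constant coefficients, with a change of the cut-off.
-/

open MeasureTheory Set Filter
open scoped ContDiff Topology Matrix

noncomputable section

namespace Vale.Agent.P088.R2.H354.E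

open Vale.Agent.P088.LR Vale.Agent.P088.HY
open Vale.Agent.P088.R2.H961.GW Vale.Agent.P088.R2.H960.W Vale.Agent.P088.R2.H644
open Vale.Agent.P088.R2.H551.E Vale.Agent.P088.R2.H464.Cu Vale.Agent.P088.R2.H973.W
open Vale.Agent.P088.R2.H644.Ch (fx fy ok_fx ok_fy)

/-! ## Margins and costs together -/

section le

variable {E ι : Type*} [NormedAddCommGroup E] [NormedSpace ℝ E] [Fintype ι]

/-- `p' + q ≤ p + q'`, coefficientwise. -/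
structure Le4 (p' q p q' : Q8 E) (z : E) : Prop where
  κ : p'.κ z + q.κ z ≤ p.κ z + q'.κ z
  ζ₁ : p'.ζ₁ z + q.ζ₁ z ≤ p.ζ₁ z + q'.ζ₁ z
  ζ₂ : p'.ζ₂ z + q.ζ₂ z ≤ p.ζ₂ z + q'.ζ₂ z
  ζy : p'.ζy z + q.ζy z ≤ p.ζy z + q'.ζy z
  w₁ : p'.w₁ z + q.w₁ z ≤ p.w₁ z + q'.w₁ z
  w₂ : p'.w₂ z + q.w₂ z ≤ p.w₂ z + q'.w₂ z
  wb : p'.wb z + q.wb z ≤ p.wb z + q'.wb z
  wc : p'.wc z + q.wc z ≤ p.wc z + q'.wc z

variable [MeasureSpace E] [FiniteDimensional ℝ E] [BorelSpace E]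
  [(volume : Measure E).IsAddHaarMeasure]

variable {σ τ : Sl E ι} {U : Set E} {θ v₁ v₂ W χ : E → ℝ} {p q p' q' : Q8 E}

/-- **Margins and costs may be changed together.** -/
theorem zone_le (ok : σ.Ok U θ) (ot : τ.Ok U θ) (hv₁ : Sm U v₁) (hv₂ : Sm U v₂) (hW : Sm U W)
    (cp : p.Ct U) (cq : q.Ct U) (cp' : p'.Ct U) (cq' : q'.Ct U)
    (h : ∀ z ∈ U, Le4 p' q p q' z) (zone : Zone σ τ U θ v₁ v₂ W χ p q) :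
    Zone σ τ U θ v₁ v₂ W χ p' q' := by
  intro a b ha hb
  have k := zone a b ha hb
  have I := fun (p : Q8 E) (hp : p.Ct U) => Q8.int_dens ok ot hv₁ hv₂ hW ha hb hp
  have e : ∀ p q : Q8 E, p.Ct U → q.Ct U → In U θ ((p + q).dens σ τ v₁ v₂ W a b) =
      In U θ (p.dens σ τ v₁ v₂ W a b) + In U θ (q.dens σ τ v₁ v₂ W a b) := by
    intro p q hp hq
    rw [← In_add_i (I p hp) (I q hq)]
    exact In_congr ok.op fun z _ => Q8.dens_add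
  have h1 : In U θ ((p' + q).dens σ τ v₁ v₂ W a b) ≤
      In U θ ((p + q').dens σ τ v₁ v₂ W a b) := by
    refine In_mono_i ok.op ok.tp (I _ (ct_add cp' cq)) (I _ (ct_add cp cq')) fun z hz => ?_
    have hz' := h z hz
    exact Q8.dens_le ⟨hz'.κ, hz'.ζ₁, hz'.ζ₂, hz'.ζy, hz'.w₁, hz'.w₂, hz'.wb, hz'.wc⟩
  rw [e _ _ cp' cq, e _ _ cp cq'] at h1
  linarith

/-- The coefficients `g² (κ, ζ₁, ζ₂, 0, w₁, w₂, 0, 0)`. -/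
def Kc (g : E → ℝ) (κ ζ₁ ζ₂ w₁ w₂ : ℝ) : Q8 E where
  κ z := g z ^ 2 * κ
  ζ₁ z := g z ^ 2 * ζ₁
  ζ₂ z := g z ^ 2 * ζ₂
  ζy _ := 0
  w₁ z := g z ^ 2 * w₁
  w₂ z := g z ^ 2 * w₂
  wb _ := 0
  wc _ := 0

omit [NormedSpace ℝ E] [MeasureSpace E] [FiniteDimensional ℝ E] [BorelSpace E]
  [(volume : Measure E).IsAddHaarMeasure] in
theorem Kc_ct {g : E → ℝ} (hg : ContinuousOn g U) (κ ζ₁ ζ₂ w₁ w₂ : ℝ) :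
    (Kc g κ ζ₁ ζ₂ w₁ w₂).Ct U :=
  ⟨(hg.pow 2).mul continuousOn_const, (hg.pow 2).mul continuousOn_const,
    (hg.pow 2).mul continuousOn_const, continuousOn_const, (hg.pow 2).mul continuousOn_const,
    (hg.pow 2).mul continuousOn_const, continuousOn_const, continuousOn_const⟩

end le

/-! ## The transfer -/

/-- The size of the errors. -/
def Kt (n : ℕ) (S κ' ζ₁ ζ₂ w₁ w₂ ζ₁' ζ₂' : ℝ) : ℝ :=
  2 + ζ₁ + ζ₂ + w₁ + w₂ + 4 * (S * (1 + κ')) + n * (ζ₁ + ζ₂ + 2 * (ζ₁' + ζ₂'))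

theorem n3_mono {n : ℕ} {O : Set (V n)} {ε ε' : ℝ} {s : MF n} (h : N3 O ε ε ε ε s)
    (hε : ε ≤ ε') : N3 O ε' ε' ε' ε' s :=
  ⟨h.sm, fun x hx i j => (h.b0 x hx i j).trans hε, fun x hx k i j => (h.b1 x hx k i j).trans hε,
    fun x hx l k i j => (h.b2 x hx l k i j).trans hε,
    fun x hx m l k i j => (h.b3 x hx m l k i j).trans hε⟩

/-- The four inequalities for the letters. -/
theorem lt_num {C ε T X Y Z S κ' ζ₁ ζ₂ w₁ w₂ ζ₁' ζ₂' : ℝ} {n : ℕ} (hC : 1 ≤ C)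
    (h0 : 0 ≤ ε) (h1 : C * ε ≤ 1 / 2) (hY : 0 ≤ Y) (hZ : 0 ≤ Z) (hYT : Y ≤ T) (hZT : Z ≤ T)
    (hX : X ≤ Y + ε * T) (hS : 0 ≤ S) (hκ : 0 ≤ κ') (z1 : 0 ≤ ζ₁) (z2 : 0 ≤ ζ₂) (o1 : 0 ≤ w₁)
    (o2 : 0 ≤ w₂) (z1' : 0 ≤ ζ₁') (z2' : 0 ≤ ζ₂') :
    (X * 1 + (κ' * (1 + 2 * (C * ε)) * Z + ε * T) ≤ (1 - C * ε) * (1 - C * ε) * Y +
      T * (2 * κ' + C * ε * Kt n S κ' ζ₁ ζ₂ w₁ w₂ ζ₁' ζ₂' * 2)) ∧
    (∀ ζ ζ' : ℝ, 0 ≤ ζ → ζ ≤ ζ₁ + ζ₂ → 0 ≤ ζ' →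
      X * (ζ / 2) + ((1 + C * ε) * (Z * ζ') + C * ε * Y + ε * T * C) ≤
        (1 - C * ε) * (Y * ζ) + T * (2 * ζ' + C * ε * Kt n S κ' ζ₁ ζ₂ w₁ w₂ ζ₁' ζ₂' * 2)) ∧
    (∀ w w' : ℝ, 0 ≤ w → w ≤ w₁ + w₂ → 0 ≤ w' →
      X * (w / 2) + (Z * w' + C * ε * (Y + 4 * (S * T) + 4 * (κ' * (S * T)) +
        n * (Y * ζ₁ + Y * ζ₂ + 2 * 0 + 2 * (Z * ζ₁' + Z * ζ₂') + 4 * 0)) + ε * T * C) ≤
        Y * w + T * (w' + C * ε * Kt n S κ' ζ₁ ζ₂ w₁ w₂ ζ₁' ζ₂' * 2)) := by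
  have hT : 0 ≤ T := hY.trans hYT
  have hn : (0 : ℝ) ≤ n := Nat.cast_nonneg n
  have e0 : 0 ≤ C * ε := mul_nonneg (by linarith) h0
  have e1 : ε ≤ C * ε := le_mul_of_one_le_left h0 hC
  set e := C * ε with he
  set P := 4 * (S * (1 + κ')) + n * (ζ₁ + ζ₂ + 2 * (ζ₁' + ζ₂')) with hP
  have P0 : 0 ≤ P := by positivity
  have eK : Kt n S κ' ζ₁ ζ₂ w₁ w₂ ζ₁' ζ₂' = 2 + ζ₁ + ζ₂ + w₁ + w₂ + P := by
    unfold Kt; rw [hP]; ring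
  rw [eK]
  have t1 : 0 ≤ e * T := mul_nonneg e0 hT
  have t2 : ε * T ≤ e * T := mul_le_mul_of_nonneg_right e1 hT
  have t3 : 0 ≤ e * T * (ζ₁ + ζ₂ + w₁ + w₂ + P) := by positivity
  have t4 : ε * T * C = e * T := by rw [he]; ring
  refine ⟨?_, ?_, ?_⟩
  · have a1 : κ' * (1 + 2 * e) * Z ≤ 2 * κ' * T := by
      calc κ' * (1 + 2 * e) * Z ≤ κ' * (1 + 2 * e) * T := by gcongr
        _ ≤ κ' * 2 * T := by gcongr; linarith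
        _ = _ := by ring
    have a2 : (1 - e) * (1 - e) * Y = Y - 2 * e * Y + e ^ 2 * Y := by ring
    have a3 : e * Y ≤ e * T := mul_le_mul_of_nonneg_left hYT e0
    have a4 : 0 ≤ e ^ 2 * Y := by positivity
    have a5 : T * (2 * κ' + e * (2 + ζ₁ + ζ₂ + w₁ + w₂ + P) * 2) =
      2 * κ' * T + 4 * (e * T) + 2 * (e * T * (ζ₁ + ζ₂ + w₁ + w₂ + P)) := by ring
    rw [a2, a5]
    linarith
  · intro ζ ζ' hζ hζs hζ'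
    have a1 : X * (ζ / 2) ≤ (Y + e * T) * (ζ / 2) :=
      mul_le_mul_of_nonneg_right (by linarith) (by linarith)
    have a2 : (1 + e) * (Z * ζ') ≤ 2 * ζ' * T := by
      calc (1 + e) * (Z * ζ') ≤ 2 * (T * ζ') := by gcongr; linarith
        _ = _ := by ring
    have a3 : e * Y ≤ e * T := mul_le_mul_of_nonneg_left hYT e0
    have a4 : e * (Y * ζ) ≤ 1 / 2 * (Y * ζ) := mul_le_mul_of_nonneg_right h1 (by positivity)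
    have a5 : T * (2 * ζ' + e * (2 + ζ₁ + ζ₂ + w₁ + w₂ + P) * 2) =
      2 * ζ' * T + 4 * (e * T) + 2 * (e * T * (ζ₁ + ζ₂)) + 2 * (e * T * (w₁ + w₂ + P)) := by ring
    have a6 : e * T * ζ ≤ e * T * (ζ₁ + ζ₂) := mul_le_mul_of_nonneg_left hζs t1
    have a7 : 0 ≤ e * T * (w₁ + w₂ + P) := by positivity
    have a8 : 0 ≤ e * T * ζ := by positivity
    rw [a5, t4]
    linarith
  · intro w w' hw hws hw'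
    have a1 : X * (w / 2) ≤ (Y + e * T) * (w / 2) :=
      mul_le_mul_of_nonneg_right (by linarith) (by linarith)
    have a2 : Z * w' ≤ T * w' := mul_le_mul_of_nonneg_right hZT hw'
    have a3 : Y + 4 * (S * T) + 4 * (κ' * (S * T)) +
        n * (Y * ζ₁ + Y * ζ₂ + 2 * 0 + 2 * (Z * ζ₁' + Z * ζ₂') + 4 * 0) ≤ T * (1 + P) := by
      have b1 : Y * ζ₁ ≤ T * ζ₁ := mul_le_mul_of_nonneg_right hYT z1
      have b2 : Y * ζ₂ ≤ T * ζ₂ := mul_le_mul_of_nonneg_right hYT z2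
      have b3 : Z * ζ₁' ≤ T * ζ₁' := mul_le_mul_of_nonneg_right hZT z1'
      have b4 : Z * ζ₂' ≤ T * ζ₂' := mul_le_mul_of_nonneg_right hZT z2'
      have b5 : n * (Y * ζ₁ + Y * ζ₂ + 2 * 0 + 2 * (Z * ζ₁' + Z * ζ₂') + 4 * 0) ≤
          n * (T * (ζ₁ + ζ₂ + 2 * (ζ₁' + ζ₂'))) := mul_le_mul_of_nonneg_left (by linarith) hn
      rw [hP]
      have b6 : 4 * (κ' * (S * T)) + 4 * (S * T) = T * (4 * (S * (1 + κ'))) := by ring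
      linarith
    have a4 := mul_le_mul_of_nonneg_left a3 e0
    have a5 : T * (w' + e * (2 + ζ₁ + ζ₂ + w₁ + w₂ + P) * 2) =
      T * w' + 2 * (e * T * (w₁ + w₂)) + 2 * (e * (T * (1 + P))) + 2 * (e * T) +
        2 * (e * T * (ζ₁ + ζ₂)) := by ring
    have a6 : e * T * w ≤ e * T * (w₁ + w₂) := mul_le_mul_of_nonneg_left hws t1
    have a7 : 0 ≤ e * T * (ζ₁ + ζ₂) := by positivity
    have a8 : 0 ≤ e * T * w := by positivity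
    have a9 : 0 ≤ Y * w := by positivity
    have a10 : 0 ≤ e * (T * (1 + P)) := by positivity
    rw [a5, t4]
    linarith

/-- The data of the transfer. -/
structure TD (n : ℕ) where
  O₁ : Set (V n)
  O₂ : Set (V n)
  U : Set (VV n)
  s₁ : MF n
  s₂ : MF n
  v₁ : VV n → ℝ
  v₂ : VV n → ℝ
  W : VV n → ℝ
  W₀ : VV n → ℝ
  χ : VV n → ℝ
  χ₀ : VV n → ℝ
  ψ : VV n → ℝ
  et : VV n → ℝ

/-- The hypotheses of the transfer. -/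
structure TD.Ok {n : ℕ} (d : TD n) (B S ε : ℝ) : Prop where
  o₁ : IsOpen d.O₁
  o₂ : IsOpen d.O₂
  oU : IsOpen d.U
  u₁ : ∀ z ∈ d.U, z.1 ∈ d.O₁
  u₂ : ∀ z ∈ d.U, z.2 ∈ d.O₂
  y₁ : ∀ x i j, d.s₁ x i j = d.s₁ x j i
  y₂ : ∀ x i j, d.s₂ x i j = d.s₂ x j i
  h₁ : N3 d.O₁ ε ε ε ε d.s₁
  h₂ : N3 d.O₂ ε ε ε ε d.s₂
  v₁ : Sm d.U d.v₁
  v₂ : Sm d.U d.v₂
  W : Sm d.U d.W
  W₀ : Sm d.U d.W₀
  χ : Sm d.U d.χ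
  et : ContinuousOn d.et d.U
  cx : H912.Cw.Cu (fx n) d.U d.χ₀ fun z => S * d.et z ^ 2
  cy : H912.Cw.Cu (fy n) d.U d.χ₀ fun z => S * d.et z ^ 2
  cx' : H912.Cw.Cu (fx n) d.U d.ψ fun z => S * d.et z ^ 2
  cy' : H912.Cw.Cu (fy n) d.U d.ψ fun z => S * d.et z ^ 2
  b₀ : ∀ z ∈ d.U, d.χ₀ z ^ 2 ≤ d.et z ^ 2
  bψ : ∀ z ∈ d.U, d.ψ z ^ 2 ≤ d.et z ^ 2
  cl : ∀ z ∈ d.U, |d.χ z ^ 2 - d.χ₀ z ^ 2| ≤ ε * d.et z ^ 2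
  cw : ∀ z ∈ d.U, d.et z ≠ 0 → CW B ε d.v₁ d.v₂ d.W d.W₀ z

/-- **The transfer of a flat zone inequality with constant coefficients.** -/
theorem tube_pert (n : ℕ) (B : ℝ) (hB : 1 ≤ B) : ∃ C : ℝ, 1 ≤ C ∧
    ∀ (d : TD n) (S ε κ' ζ₁ ζ₂ w₁ w₂ ζ₁' ζ₂' w₁' w₂' : ℝ), d.Ok B S ε → 0 ≤ S → 0 < ε →
      C * ε ≤ 1 / 2 → 0 ≤ κ' → 0 ≤ ζ₁ → 0 ≤ ζ₂ → 0 ≤ w₁ → 0 ≤ w₂ → 0 ≤ ζ₁' → 0 ≤ ζ₂' →
      0 ≤ w₁' → 0 ≤ w₂' →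
      Zone (fx n) (fy n) d.U (fun _ => 1) (fun _ => 0) (fun _ => 0) d.W₀ d.χ₀
        (Kc d.χ₀ 1 ζ₁ ζ₂ w₁ w₂) (Kc d.ψ κ' ζ₁' ζ₂' w₁' w₂') →
      Zone (sx d.s₁) (sy d.s₂) d.U (fun _ => 1) d.v₁ d.v₂ d.W d.χ
        (Kc d.χ 1 (ζ₁ / 2) (ζ₂ / 2) (w₁ / 2) (w₂ / 2))
        (Kc d.et (2 * κ' + C * ε * Kt n S κ' ζ₁ ζ₂ w₁ w₂ ζ₁' ζ₂' * 2)
          (2 * ζ₁' + C * ε * Kt n S κ' ζ₁ ζ₂ w₁ w₂ ζ₁' ζ₂' * 2)
          (2 * ζ₂' + C * ε * Kt n S κ' ζ₁ ζ₂ w₁ w₂ ζ₁' ζ₂' * 2)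
          (w₁' + C * ε * Kt n S κ' ζ₁ ζ₂ w₁ w₂ ζ₁' ζ₂' * 2)
          (w₂' + C * ε * Kt n S κ' ζ₁ ζ₂ w₁ w₂ ζ₁' ζ₂' * 2)) := by
  have := Ch.haar_VV (n := n)
  obtain ⟨C₁, hC₁, H₁⟩ := pert_xy n B hB
  obtain ⟨A, hA, H₂⟩ := sta_bd n B
  refine ⟨C₁ + A, by linarith, ?_⟩
  set C := C₁ + A with hC
  have C1 : 1 ≤ C := by linarith
  intro d S ε κ' ζ₁ ζ₂ w₁ w₂ ζ₁' ζ₂' w₁' w₂' k hS h0 h1 hκ z1 z2 o1 o2 z1' z2' o1' o2' zone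
  have ε1 : ε ≤ 1 := by nlinarith
  have hT : ∀ z, 0 ≤ d.et z ^ 2 := fun z => sq_nonneg _
  have cχ₀ : ContinuousOn d.χ₀ d.U := k.cx.sm.continuousOn
  have cψ : ContinuousOn d.ψ d.U := k.cx'.sm.continuousOn
  have ok := ok_sx k.o₁ k.oU k.u₁ k.h₁.sm k.y₁
  have ot := ok_sy k.o₂ k.oU k.u₂ k.h₂.sm k.y₂
  have z0 : ∀ z ∈ d.U, d.et z = 0 → d.χ₀ z = 0 ∧ d.ψ z = 0 := fun z hz h => by
    have a1 := k.b₀ z hz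
    have a2 := k.bψ z hz
    rw [h, zero_pow two_ne_zero] at a1 a2
    exact ⟨pow_eq_zero_iff two_ne_zero |>.1 (le_antisymm a1 (sq_nonneg _)),
      pow_eq_zero_iff two_ne_zero |>.1 (le_antisymm a2 (sq_nonneg _))⟩
  have e1 : C₁ * ε ≤ C * ε := mul_le_mul_of_nonneg_right (by linarith) h0.le
  -- the transfer with the cut-off `χ₀`
  have s1 := H₁ d.O₁ d.O₂ d.U d.s₁ d.s₂ d.v₁ d.v₂ d.W d.W₀ d.χ₀ d.ψ (fun z => S * d.et z ^ 2)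
    (fun z => S * d.et z ^ 2) (Kc d.χ₀ 1 ζ₁ ζ₂ w₁ w₂) (Kc d.ψ κ' ζ₁' ζ₂' w₁' w₂') ε 1 κ' k.o₁ k.o₂
    k.oU k.u₁ k.u₂ k.y₁ k.y₂ k.h₁ k.h₂ k.v₁ k.v₂ k.W k.W₀ k.cx k.cy k.cx' k.cy' h0
    (by linarith) (by linarith) le_rfl hκ (Kc_ct cχ₀ _ _ _ _ _) (Kc_ct cψ _ _ _ _ _)
    (fun z _ => by simp [Kc]) (fun z _ => by simp only [Kc]; linarith)
    (fun z _ => ⟨mul_nonneg (sq_nonneg _) z1, mul_nonneg (sq_nonneg _) z2, le_rfl⟩)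
    (fun z _ => ⟨mul_nonneg (sq_nonneg _) z1', mul_nonneg (sq_nonneg _) z2', le_rfl⟩)
    (fun z hz => by
      by_cases h : d.et z = 0
      · obtain ⟨a1, a2⟩ := z0 z hz h
        refine Or.inr ⟨a1, a2, ?_⟩
        simp [Kc, a1, a2]
      · exact Or.inl (k.cw z hz h)) zone
  -- the change of the cut-off
  have cexA : ContinuousOn (fun z => ε * d.et z ^ 2) d.U := continuousOn_const.mul (k.et.pow 2)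
  have cp1 := mgT_ct (e := C₁ * ε) (κ := 1) cχ₀ (Kc_ct cχ₀ 1 ζ₁ ζ₂ w₁ w₂)
  have co : ContinuousOn (fun z => S * d.et z ^ 2) d.U := continuousOn_const.mul (k.et.pow 2)
  have cq1 := coT_ct (e := C₁ * ε) (κ' := κ') (N := n) cχ₀ cψ co co (Kc_ct cχ₀ 1 ζ₁ ζ₂ w₁ w₂)
    (Kc_ct cψ κ' ζ₁' ζ₂' w₁' w₂')
  have s2 := zone_cut (δ := fun z => ε * d.et z ^ 2) (A := fun _ => A) ok ot k.v₁ k.v₂ k.W k.χ
    k.cx.sm cexA continuousOn_const k.cl cq1 (fun a b _ _ z hz hne => by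
      have hne' : d.et z ≠ 0 := fun h => hne (by simp only [h]; ring)
      have w := k.cw z hz hne'
      exact H₂ d.O₁ d.O₂ d.U d.s₁ d.s₂ d.v₁ d.v₂ d.W k.o₁ k.o₂ k.oU (n3_mono k.h₁ ε1)
        (n3_mono k.h₂ ε1) k.v₁ k.v₂ k.W z hz (k.u₁ z hz) (k.u₂ z hz) (w.n1.trans (by linarith))
        (w.n2.trans (by linarith)) (fun j a1 a2 => (w.jW j a1 a2).1) a b) s1
  refine zone_le ok ot k.v₁ k.v₂ k.W cp1 (ct_add cq1 (exQ_ct cexA continuousOn_const))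
    (Kc_ct k.χ.continuousOn _ _ _ _ _) (Kc_ct k.et _ _ _ _ _) (fun z hz => ?_) s2
  have hX : d.χ z ^ 2 ≤ d.χ₀ z ^ 2 + ε * d.et z ^ 2 := by
    have := (abs_le.1 (k.cl z hz)).2
    linarith
  obtain ⟨L1, L2, L3⟩ := lt_num (n := n) C1 h0.le h1 (sq_nonneg (d.χ₀ z)) (sq_nonneg (d.ψ z))
    (k.b₀ z hz) (k.bψ z hz) hX hS hκ z1 z2 o1 o2 z1' z2'
  set K := C * ε * Kt n S κ' ζ₁ ζ₂ w₁ w₂ ζ₁' ζ₂' * 2 with hK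
  have m1 : (1 - C * ε) * (1 - C * ε) * d.χ₀ z ^ 2 ≤
      (1 - C₁ * ε) * (1 - C₁ * ε) * d.χ₀ z ^ 2 := by
    have : (1 - C * ε) * (1 - C * ε) ≤ (1 - C₁ * ε) * (1 - C₁ * ε) :=
      mul_le_mul (by linarith) (by linarith) (by linarith) (by linarith)
    exact mul_le_mul_of_nonneg_right this (sq_nonneg _)
  have m2 : κ' * (1 + 2 * (C₁ * ε)) * d.ψ z ^ 2 ≤ κ' * (1 + 2 * (C * ε)) * d.ψ z ^ 2 := by
    gcongr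
  have q0 : 0 ≤ d.χ₀ z ^ 2 := sq_nonneg _
  have q1 : 0 ≤ d.ψ z ^ 2 := sq_nonneg _
  have q2 : 0 ≤ d.et z ^ 2 := sq_nonneg _
  have m3 : ε * d.et z ^ 2 * A ≤ ε * d.et z ^ 2 * C := by gcongr; linarith
  have m4 : C₁ * ε * d.χ₀ z ^ 2 ≤ C * ε * d.χ₀ z ^ 2 := by gcongr
  have zz : ∀ ζ ζ' : ℝ, 0 ≤ ζ → 0 ≤ ζ' →
      d.χ z ^ 2 * (ζ / 2) + ((1 + C * ε) * (d.ψ z ^ 2 * ζ') + C * ε * d.χ₀ z ^ 2 +
        ε * d.et z ^ 2 * C) ≤ (1 - C * ε) * (d.χ₀ z ^ 2 * ζ) + d.et z ^ 2 * (2 * ζ' + K) →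
      d.χ z ^ 2 * (ζ / 2) + ((1 + C₁ * ε) * (d.ψ z ^ 2 * ζ') + C₁ * ε * d.χ₀ z ^ 2 +
        ε * d.et z ^ 2 * A) ≤ (1 - C₁ * ε) * (d.χ₀ z ^ 2 * ζ) + d.et z ^ 2 * (2 * ζ' + K) := by
    intro ζ ζ' hζ hζ' h
    have n1 : (1 + C₁ * ε) * (d.ψ z ^ 2 * ζ') ≤ (1 + C * ε) * (d.ψ z ^ 2 * ζ') := by gcongr
    have n2 : (1 - C * ε) * (d.χ₀ z ^ 2 * ζ) ≤ (1 - C₁ * ε) * (d.χ₀ z ^ 2 * ζ) := by gcongr
    linarith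
  have ww : ∀ w w' : ℝ,
      d.χ z ^ 2 * (w / 2) + (d.ψ z ^ 2 * w' + C * ε * (d.χ₀ z ^ 2 + 4 * (S * d.et z ^ 2) +
        4 * (κ' * (S * d.et z ^ 2)) + n * (d.χ₀ z ^ 2 * ζ₁ + d.χ₀ z ^ 2 * ζ₂ + 2 * 0 +
        2 * (d.ψ z ^ 2 * ζ₁' + d.ψ z ^ 2 * ζ₂') + 4 * 0)) + ε * d.et z ^ 2 * C) ≤
        d.χ₀ z ^ 2 * w + d.et z ^ 2 * (w' + K) →
      d.χ z ^ 2 * (w / 2) + (d.ψ z ^ 2 * w' + C₁ * ε * (d.χ₀ z ^ 2 + 4 * (S * d.et z ^ 2) +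
        4 * (κ' * (S * d.et z ^ 2)) + n * (d.χ₀ z ^ 2 * ζ₁ + d.χ₀ z ^ 2 * ζ₂ + 2 * 0 +
        2 * (d.ψ z ^ 2 * ζ₁' + d.ψ z ^ 2 * ζ₂') + 4 * 0)) + ε * d.et z ^ 2 * A) ≤
        d.χ₀ z ^ 2 * w + d.et z ^ 2 * (w' + K) := by
    intro w w' h
    have n1 : C₁ * ε * (d.χ₀ z ^ 2 + 4 * (S * d.et z ^ 2) +
        4 * (κ' * (S * d.et z ^ 2)) + n * (d.χ₀ z ^ 2 * ζ₁ + d.χ₀ z ^ 2 * ζ₂ + 2 * 0 +
        2 * (d.ψ z ^ 2 * ζ₁' + d.ψ z ^ 2 * ζ₂') + 4 * 0)) ≤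
      C * ε * (d.χ₀ z ^ 2 + 4 * (S * d.et z ^ 2) +
        4 * (κ' * (S * d.et z ^ 2)) + n * (d.χ₀ z ^ 2 * ζ₁ + d.χ₀ z ^ 2 * ζ₂ + 2 * 0 +
        2 * (d.ψ z ^ 2 * ζ₁' + d.ψ z ^ 2 * ζ₂') + 4 * 0)) :=
      mul_le_mul_of_nonneg_right e1 (by positivity)
    linarith
  refine ⟨?_, ?_, ?_, ?_, ?_, ?_, ?_, ?_⟩
  all_goals simp only [Kc, mgT, coT, xt, exQ, Q8.add_def, Pi.add_apply]
  · linarith
  · have := L2 ζ₁ ζ₁' z1 (by linarith) z1'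
    exact zz ζ₁ ζ₁' z1 z1' this
  · have := L2 ζ₂ ζ₂' z2 (by linarith) z2'
    exact zz ζ₂ ζ₂' z2 z2' this
  · simp
  · have := L3 w₁ w₁' o1 (by linarith) o1'
    exact ww w₁ w₁' this
  · have := L3 w₂ w₂' o2 (by linarith) o2'
    exact ww w₂ w₂' this
  · simp
  · simp

end Vale.Agent.P088.R2.H354.E
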