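import Vale.Agent.P088.R2.H354.T.Ab
import Vale.Agent.P088.R2.H222.Clo
import Vale.Agent.P088.R2.H313.MuA

/-!
# P088, stage 3, zone T: the conditions on the cut-offs

`cu_of`: a nonnegative smooth function with two bounded derivatives satisfies the conditions on
the cut-offs. `exists_Sk_on`: bounds of the derivatives on a compact subset of an open set.
-/

open Set Filter
open scoped ContDiff Topology

noncomputable section

namespace Vale.Agent.P088.R2.H354.T

open Vale.Agent.P088.LR Vale.Agent.P088.HY Vale.Agent.P088.R2.H222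
open Vale.Agent.P088.R2.H644.Ch (fx fy fx_D fy_D)
open Vale.Agent.P088.R2.H551.E

variable {n k : ℕ}

/-! ## Functions of one variable -/

theorem exists_Sk_on {S : ℝ → ℝ} {I J : Set ℝ} (hJ : IsOpen J) (hS : ContDiffOn ℝ ∞ S J)
    (hI : IsCompact I) (hIJ : I ⊆ J) (k : ℕ) : ∃ M, 0 ≤ M ∧ Sk k I J M S := by
  have h1 : ∀ j ≤ k, ∃ M, ∀ t ∈ I, |iteratedDeriv j S t| ≤ M := by
    intro j _
    have hc : ContinuousOn (iteratedDeriv j S) J := by
      have h2 : ContinuousOn (iteratedDerivWithin j S J) J :=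
        hS.continuousOn_iteratedDerivWithin (by exact_mod_cast le_top) hJ.uniqueDiffOn
      exact h2.congr fun x hx => (iteratedDerivWithin_of_isOpen hJ hx).symm
    obtain ⟨M, hM⟩ := hI.exists_bound_of_continuousOn (f := iteratedDeriv j S) (hc.mono hIJ)
    exact ⟨M, hM⟩
  induction k with
  | zero =>
    obtain ⟨M, hM⟩ := h1 0 le_rfl
    refine ⟨max M 0, le_max_right _ _, hJ, hIJ, hS, fun j hj t ht => ?_⟩
    obtain rfl : j = 0 := by omega
    exact (hM t ht).trans (le_max_left _ _)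
  | succ k ih =>
    obtain ⟨M, hM0, hM⟩ := ih fun j hj => h1 j (by omega)
    obtain ⟨M', hM'⟩ := h1 (k + 1) le_rfl
    refine ⟨max M M', hM0.trans (le_max_left _ _), hJ, hIJ, hS, fun j hj t ht => ?_⟩
    rcases Nat.lt_or_ge k j with h | h
    · obtain rfl : j = k + 1 := by omega
      exact (hM' t ht).trans (le_max_right _ _)
    · exact (hM.b j h t ht).trans (le_max_left _ _)

/-! ## Directional derivatives -/

section bk

variable {E : Type*} [NormedAddCommGroup E] [NormedSpace ℝ E] {U : Set E} {B : ℝ} {f : E → ℝ}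

theorem Bk.ap (h : Bk (k + 1) U B f) {v : E} (hv : ‖v‖ ≤ 1) :
    Bk k U B (fun z => fderiv ℝ f z v) := by
  have h1 := h.fd
  refine Bk.of_w h1.o (h1.s.clm_apply contDiffOn_const) fun j hj x hx => ?_
  refine (norm_iteratedFDerivWithin_clm_apply_const (h1.s x hx) h1.o.uniqueDiffOn hx
    (by exact_mod_cast le_top)).trans ?_
  have h2 := h1.w hj hx
  have h3 : 0 ≤ ‖iteratedFDerivWithin ℝ j (fderiv ℝ f) U x‖ := norm_nonneg _
  calc ‖v‖ * ‖iteratedFDerivWithin ℝ j (fderiv ℝ f) U x‖ ≤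
      1 * ‖iteratedFDerivWithin ℝ j (fderiv ℝ f) U x‖ := mul_le_mul_of_nonneg_right hv h3
    _ ≤ B := by rw [one_mul]; exact h2

/-- From a neighbourhood of the support to the whole space. -/
theorem bk_glob (h : Bk k U B f) (hs : ContDiff ℝ ∞ f) (hU : tsupport f ⊆ U) (hB : 0 ≤ B) :
    Bk k univ B f := by
  refine ⟨isOpen_univ, hs.contDiffOn, fun j hj x _ => ?_⟩
  by_cases hx : x ∈ U
  · exact h.b j hj x hx
  · have h1 : f =ᶠ[𝓝 x] fun _ => 0 := notMem_tsupport_iff_eventuallyEq.1 fun h => hx (hU h)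
    have h2 : iteratedFDeriv ℝ j f x = iteratedFDeriv ℝ j (fun _ : E => (0 : ℝ)) x :=
      Filter.EventuallyEq.eq_of_nhds (h1.iteratedFDeriv (𝕜 := ℝ) j)
    rw [h2]
    have h3 := (Bk.const (k := k) (U := (univ : Set E)) (B := (0 : ℝ)) isOpen_univ (c := (0 : ℝ))
      (by simp)).b j hj x (mem_univ x)
    exact h3.trans hB

/-- `|∂_v f|² ≤ 2 B f` for a nonnegative function. -/
theorem sq_le_of_bk (h : Bk 2 univ B f) (h0 : ∀ z, 0 ≤ f z) (hB : 0 ≤ B) {v : E} (hv : ‖v‖ ≤ 1)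
    (z : E) : fderiv ℝ f z v ^ 2 ≤ 2 * B * f z := by
  have hs : ContDiff ℝ ∞ f := contDiffOn_univ.1 h.s
  set g : ℝ → ℝ := fun s => f (z + s • v) with hg
  have hl : ContDiff ℝ ∞ fun s : ℝ => z + s • v := contDiff_const.add (contDiff_id.smul contDiff_const)
  have hgs : ContDiff ℝ ∞ g := hs.comp hl
  have d1 : ∀ s, deriv g s = fderiv ℝ f (z + s • v) v := fun s => by
    have e1 : HasDerivAt (fun s : ℝ => z + s • v) v s := by
      simpa using ((hasDerivAt_id s).smul_const v).const_add z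
    exact ((hs.differentiable (by simp)).differentiableAt.hasFDerivAt.comp_hasDerivAt s e1).deriv
  have h1 : Bk 1 univ B (fun z => fderiv ℝ f z v) := Bk.ap h hv
  have hs1 : ContDiff ℝ ∞ fun z => fderiv ℝ f z v := contDiffOn_univ.1 h1.s
  have d2 : ∀ s, deriv (deriv g) s = fderiv ℝ (fun z => fderiv ℝ f z v) (z + s • v) v := fun s => by
    have e1 : HasDerivAt (fun s : ℝ => z + s • v) v s := by
      simpa using ((hasDerivAt_id s).smul_const v).const_add z
    have e2 : deriv g = fun s => fderiv ℝ f (z + s • v) v := funext d1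
    rw [e2]
    exact ((hs1.differentiable (by simp)).differentiableAt.hasFDerivAt.comp_hasDerivAt s e1).deriv
  have h2 := H313.Mu.sq_deriv_le (f := g) (contDiff_infty.1 hgs 2) (fun s => h0 _) hB
    (fun s => by
      rw [d2 s]
      have k1 : Bk 0 univ B (fun z => fderiv ℝ (fun z => fderiv ℝ f z v) z v) := Bk.ap h1 hv
      exact (le_abs_self _).trans (k1.val (mem_univ _))) 0
  rw [d1 0] at h2
  simpa [hg] using h2

end bk

theorem nrm_s (i : Fin n) : ‖(Pi.single i 1 : V n)‖ ≤ 1 := by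
  refine (pi_norm_le_iff_of_nonneg zero_le_one).2 fun j => ?_
  by_cases h : j = i
  · subst h; simp
  · simp [Pi.single_eq_of_ne h]

theorem nrm_e1 (i : Fin n) : ‖((Pi.single i 1, 0) : VV n)‖ ≤ 1 := by
  rw [Prod.norm_def]
  simpa using nrm_s i

theorem nrm_e2 (i : Fin n) : ‖((0, Pi.single i 1) : VV n)‖ ≤ 1 := by
  rw [Prod.norm_def]
  simpa using nrm_s i

/-- **The conditions on a cut-off.** -/
theorem cu_of {χ et : VV n → ℝ} {C : ℝ} (h : Bk 2 univ C χ) (h0 : ∀ z, 0 ≤ χ z) (hC : 0 ≤ C)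
    (h1 : ∀ z, χ z ≤ 1) (he : Continuous et) (h2 : ∀ z ∈ tsupport χ, et z = 1) :
    H912.Cw.Cu (fx n) univ χ (fun z => (1 + (n + 4 * n ^ 2) * C ^ 2) * et z ^ 2) ∧
      H912.Cw.Cu (fy n) univ χ (fun z => (1 + (n + 4 * n ^ 2) * C ^ 2) * et z ^ 2) := by
  have hn : (0 : ℝ) ≤ n := Nat.cast_nonneg n
  have key : ∀ (D : Fin n → (VV n → ℝ) → VV n → ℝ) (v : Fin n → VV n),
      (∀ i f z, D i f z = fderiv ℝ f z (v i)) → (∀ i, ‖v i‖ ≤ 1) →
      (∀ z, χ z ^ 2 ≤ (1 + (n + 4 * n ^ 2) * C ^ 2) * et z ^ 2) ∧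
      (∀ z, ∑ i, D i χ z ^ 2 ≤ (1 + (n + 4 * n ^ 2) * C ^ 2) * et z ^ 2) ∧
      (∀ z, ∑ j, ∑ i, D j (D i χ) z ^ 2 ≤ (1 + (n + 4 * n ^ 2) * C ^ 2) * et z ^ 2) ∧
      (∀ z, (∑ i, D i χ z ^ 2) ^ 2 ≤ χ z ^ 2 * ((1 + (n + 4 * n ^ 2) * C ^ 2) * et z ^ 2)) := by
    intro D v hD hv
    have hA : (0 : ℝ) ≤ (1 + (n + 4 * n ^ 2) * C ^ 2) := by positivity
    have b1 : ∀ i, Bk 1 univ C (D i χ) := fun i => by
      have := Bk.ap h (hv i)
      exact this.congr fun z _ => hD i χ z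
    have b2 : ∀ i j, Bk 0 univ C (D j (D i χ)) := fun i j => by
      have := Bk.ap (b1 i) (hv j)
      exact this.congr fun z _ => hD j _ z
    have off : ∀ z, z ∉ tsupport χ → χ z = 0 ∧ (∀ i, D i χ z = 0) ∧ ∀ i j, D j (D i χ) z = 0 := by
      intro z hz
      have e0 : χ =ᶠ[𝓝 z] fun _ => 0 := notMem_tsupport_iff_eventuallyEq.1 hz
      have e1 : ∀ i, D i χ =ᶠ[𝓝 z] fun _ => 0 := fun i => by
        filter_upwards [e0.eventuallyEq_nhds] with w hw
        rw [hD, hw.fderiv_eq]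
        simp
      refine ⟨e0.eq_of_nhds, fun i => (e1 i).eq_of_nhds, fun i j => ?_⟩
      rw [hD, (e1 i).fderiv_eq]
      simp
    have sqC : ∀ x : ℝ, |x| ≤ C → x ^ 2 ≤ C ^ 2 := fun x hx => by
      rw [← sq_abs]
      exact pow_le_pow_left₀ (abs_nonneg _) hx 2
    refine ⟨fun z => ?_, fun z => ?_, fun z => ?_, fun z => ?_⟩
    · by_cases hz : z ∈ tsupport χ
      · rw [h2 z hz]
        have := h0 z
        have := h1 z
        have k : 0 ≤ (n + 4 * n ^ 2) * C ^ 2 := by positivity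
        nlinarith
      · rw [(off z hz).1]
        simp only [ne_eq, OfNat.ofNat_ne_zero, not_false_eq_true, zero_pow]
        positivity
    · by_cases hz : z ∈ tsupport χ
      · rw [h2 z hz]
        have k1 : ∑ i, D i χ z ^ 2 ≤ ∑ _i : Fin n, C ^ 2 :=
          Finset.sum_le_sum fun i _ => sqC _ ((b1 i).val (mem_univ z))
        rw [Finset.sum_const, Finset.card_univ, Fintype.card_fin, nsmul_eq_mul] at k1
        have k2 : (0 : ℝ) ≤ 4 * n ^ 2 * C ^ 2 := by positivity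
        nlinarith
      · simp only [(off z hz).2.1]
        simp only [ne_eq, OfNat.ofNat_ne_zero, not_false_eq_true, zero_pow, Finset.sum_const_zero]
        positivity
    · by_cases hz : z ∈ tsupport χ
      · rw [h2 z hz]
        have k1 : ∑ j, ∑ i, D j (D i χ) z ^ 2 ≤ ∑ _j : Fin n, ∑ _i : Fin n, C ^ 2 :=
          Finset.sum_le_sum fun j _ => Finset.sum_le_sum fun i _ =>
            sqC _ ((b2 i j).val (mem_univ z))
        simp only [Finset.sum_const, Finset.card_univ, Fintype.card_fin, nsmul_eq_mul] at k1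
        have k2 : (0 : ℝ) ≤ n * C ^ 2 := by positivity
        have k3 : (0 : ℝ) ≤ n ^ 2 * C ^ 2 := by positivity
        nlinarith
      · simp only [(off z hz).2.2]
        simp only [ne_eq, OfNat.ofNat_ne_zero, not_false_eq_true, zero_pow, Finset.sum_const_zero]
        positivity
    · by_cases hz : z ∈ tsupport χ
      · rw [h2 z hz]
        have k1 : ∑ i, D i χ z ^ 2 ≤ ∑ _i : Fin n, 2 * C * χ z :=
          Finset.sum_le_sum fun i _ => by
            rw [hD]
            exact sq_le_of_bk h h0 hC (hv i) z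
        rw [Finset.sum_const, Finset.card_univ, Fintype.card_fin, nsmul_eq_mul] at k1
        have k0 : 0 ≤ ∑ i, D i χ z ^ 2 := Finset.sum_nonneg fun _ _ => sq_nonneg _
        have k2 : (∑ i, D i χ z ^ 2) ^ 2 ≤ (n * (2 * C * χ z)) ^ 2 :=
          pow_le_pow_left₀ k0 k1 2
        have k3 : (0 : ℝ) ≤ n * C ^ 2 * χ z ^ 2 := by positivity
        nlinarith [sq_nonneg (χ z)]
      · simp only [(off z hz).2.1, (off z hz).1]
        simp
  obtain ⟨a1, a2, a3, a4⟩ := key (fun i f => dx i f) (fun i => (Pi.single i 1, 0))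
    (fun i f z => rfl) nrm_e1
  obtain ⟨b1, b2, b3, b4⟩ := key (fun i f => dy i f) (fun i => (0, Pi.single i 1))
    (fun i f z => rfl) nrm_e2
  have ct : ContinuousOn (fun z => (1 + (n + 4 * n ^ 2) * C ^ 2) * et z ^ 2) univ :=
    (continuous_const.mul (he.pow 2)).continuousOn
  refine ⟨⟨h.s, ct, fun z _ => a1 z, fun z _ => ?_, fun z _ => ?_, fun z _ => ?_⟩,
    ⟨h.s, ct, fun z _ => b1 z, fun z _ => ?_, fun z _ => ?_, fun z _ => ?_⟩⟩
  · unfold H912.Cw.q1
    simp only [fx_D]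
    exact a2 z
  · unfold H912.Cw.q2
    simp only [fx_D]
    exact a3 z
  · unfold H912.Cw.q1
    simp only [fx_D]
    exact a4 z
  · unfold H912.Cw.q1
    simp only [fy_D]
    exact b2 z
  · unfold H912.Cw.q2
    simp only [fy_D]
    exact b3 z
  · unfold H912.Cw.q1
    simp only [fy_D]
    exact b4 z

end Vale.Agent.P088.R2.H354.T
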